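import Mathlib
import Crest.Prelude.Def_MassAction

/-!
S0122 (permanence of weakly reversible mass action systems): definitions.
Blueprint: guide 122.
-/
set_option autoImplicit false

namespace Crest.Agent.Perm

open Finset

/-- integer linear form applied to a real vector -/
def dz {d : ℕ} (φ : Fin d → ℤ) (n : Fin d → ℝ) : ℝ := ∑ a, (φ a : ℝ) * n a

/-- every integer form supported on `T` with coefficients bounded by `b` is `0` or `≥ h` at `n` -/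
def Gap {d : ℕ} (T : Finset (Fin d)) (b : ℕ) (n : Fin d → ℝ) (h : ℝ) : Prop :=
  ∀ φ : Fin d → ℤ, (∀ a, a ∉ T → φ a = 0) → (∀ a, |φ a| ≤ (b : ℤ)) →
    dz φ n = 0 ∨ h ≤ |dz φ n|

/-- the parameters: `B0` size of the forms to be locked, `H0` ratio at the end -/
structure Par (d : ℕ) where
  B0 : ℕ
  H0 : ℝ
  hd : 1 ≤ d
  hB : 1 ≤ B0
  hH : 2 ≤ H0

/-- size of forms when `q` coordinates are still active -/
def Par.B {d : ℕ} (P : Par d) : ℕ → ℕ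
  | 0 => P.B0
  | q + 1 => 2 * d * (P.B q) ^ 2

/-- gap ratio when `q` coordinates are still active -/
noncomputable def Par.H {d : ℕ} (P : Par d) : ℕ → ℝ
  | 0 => P.H0
  | q + 1 => ((d : ℝ) * (P.B q : ℝ)) ^ 2 * (P.H q + 4) * (4 * P.H q + 12)

/-- radius ratio of the wall boxes when `q` coordinates are still active -/
noncomputable def Par.Γ {d : ℕ} (P : Par d) : ℕ → ℝ
  | 0 => 4
  | q + 1 => 4 * P.H q + 4

/-- the smallest allowed scale -/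
noncomputable def D0 (d : ℕ) : ℝ := 2 * Real.log (64 * d) + 6

/-- slack -/
noncomputable def gam (d : ℕ) : ℝ := Real.log (2 * d) + 1

/-- scale after a block of `b` coordinates stopped at a level with base scale `ω₁`, when `q`
coordinates were active before -/
noncomputable def Par.sc {d : ℕ} (P : Par d) (q : ℕ) (ω₁ : ℝ) : ℕ → ℝ
  | 0 => ω₁
  | 1 => ω₁
  | b + 2 => P.Γ (q - (b + 1)) * Par.sc P q ω₁ (b + 1) + gam d

/-- stop all coordinates of `B` at level `g` -/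
noncomputable def stop {d : ℕ} (n : Fin d → ℝ) (B : Finset (Fin d)) (g : ℝ) : Fin d → ℝ :=
  fun a => if a ∈ B then g else n a

/-- the gap condition at level `g` for active set `A` after the stopped set `T` -/
def VGap {d : ℕ} (P : Par d) (q : ℕ) (T A : Finset (Fin d)) (n : Fin d → ℝ) (g ω₁ : ℝ) : Prop :=
  ∀ B ⊆ A, B.Nonempty → Gap (T ∪ B) (P.B (q - 1)) (stop n B g) (P.H (q - 1) * ω₁)

/-- `Good P q T A n ℓ ω 𝒜`: a family of pairs (normal, reward) for the context in which the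
coordinates of `T` have stopped at the levels `n`, the coordinates of `A` (`q` of them) are
active at the current level `ℓ` and have to go down at least one step, scale `ω`. -/
structure Good {d : ℕ} (P : Par d) (q : ℕ) (T A : Finset (Fin d)) (n : Fin d → ℝ) (ℓ ω : ℝ)
    (𝒜 : Set ((Fin d → ℝ) × ℝ)) : Prop where
  off : ∀ p ∈ 𝒜, ∀ a, a ∉ A → p.1 a = n a
  le : ∀ p ∈ 𝒜, ∀ a ∈ A, p.1 a ≤ ℓ - (P.Γ q + 1) * ω
  rew_nonneg : ∀ p ∈ 𝒜, 0 ≤ p.2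
  rew_le : ∀ p ∈ 𝒜, p.2 ≤ 3 / 2 * q * ((P.Γ q + 1) * ω) * Real.exp (ℓ - P.Γ q * ω)
  first : (stop n A (ℓ - (P.Γ q + 1) * ω),
    q * ((P.Γ q + 1) * ω) * Real.exp (ℓ - P.Γ q * ω)) ∈ 𝒜
  fin : ∀ M : ℝ, {p ∈ 𝒜 | ∀ a ∈ A, -M ≤ p.1 a}.Finite
  box : ∀ x : Fin d → ℝ, (∀ a ∈ A, 0 < x a) → ∀ p ∈ 𝒜,
    (∀ p' ∈ 𝒜, ∑ a ∈ A, p'.1 a * x a + p'.2 ≤ ∑ a ∈ A, p.1 a * x a + p.2) →
    (∑ a ∈ A, ℓ * x a ≤ ∑ a ∈ A, p.1 a * x a + p.2) →
    ∃ ωf, ω ≤ ωf ∧ Gap (T ∪ A) P.B0 p.1 (P.H0 * ωf) ∧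
      ∀ a ∈ A, |Real.log (x a) - p.1 a| ≤ ωf

/-- the hypothesis on a context -/
structure Ctx {d : ℕ} (P : Par d) (q : ℕ) (T A : Finset (Fin d)) (n : Fin d → ℝ) (ℓ ω : ℝ) :
    Prop where
  card : A.card = q
  disj : Disjoint T A
  scale : D0 d ≤ ω
  wall : ∃ i ∈ T, n i = ℓ
  gap : Gap T (P.B q) n (P.H q * ω)

/-- `LevelGood P T A n g ω₁ 𝓛`: family of all options in which a nonempty block stops at
level `g` (base scale `ω₁`), and the others go on. -/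
structure LevelGood {d : ℕ} (P : Par d) (T A : Finset (Fin d)) (n : Fin d → ℝ) (g ω₁ : ℝ)
    (𝓛 : Set ((Fin d → ℝ) × ℝ)) : Prop where
  off : ∀ p ∈ 𝓛, ∀ a, a ∉ A → p.1 a = n a
  le : ∀ p ∈ 𝓛, ∀ a ∈ A, p.1 a ≤ g
  ex : ∀ p ∈ 𝓛, ∃ a ∈ A, p.1 a = g
  rew_nonneg : ∀ p ∈ 𝓛, 0 ≤ p.2
  rew_le : ∀ p ∈ 𝓛, p.2 ≤ 1 / 16 * Real.exp (g - 2 * ω₁)
  all : (stop n A g, (0 : ℝ)) ∈ 𝓛
  fin : ∀ M : ℝ, {p ∈ 𝓛 | ∀ a ∈ A, -M ≤ p.1 a}.Finite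
  box : ∀ x : Fin d → ℝ, (∀ a ∈ A, 0 < x a) → ∀ p ∈ 𝓛,
    (∀ p' ∈ 𝓛, ∑ a ∈ A, p'.1 a * x a + p'.2 ≤ ∑ a ∈ A, p.1 a * x a + p.2) →
    (∀ a ∈ A, Real.log (x a) ≤ g + ω₁) →
    ∀ β Δ : ℝ, g - β + Real.log 2 ≤ ω₁ → 1 ≤ Δ →
      (∑ a ∈ A, (g - Δ) * x a + A.card * Δ * Real.exp β ≤ ∑ a ∈ A, p.1 a * x a + p.2) →
    ∃ ωf, ω₁ ≤ ωf ∧ Gap (T ∪ A) P.B0 p.1 (P.H0 * ωf) ∧
      ∀ a ∈ A, |Real.log (x a) - p.1 a| ≤ ωf

/-- value of the affine function `p = (normal, constant)` at `x` -/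
def F {d : ℕ} (p : (Fin d → ℝ) × ℝ) (x : Fin d → ℝ) : ℝ := ∑ a, p.1 a * x a + p.2

/-- the convex sets cut out by the families `𝒱 t` with heights `h t s` -/
def Kset {d : ℕ} {τ : Type} (𝒱 : τ → Set ((Fin d → ℝ) × ℝ)) (h : τ → ℝ → ℝ) (s : ℝ) :
    Set (Fin d → ℝ) :=
  {x | (∀ a, 0 < x a) ∧ ∀ t, ∀ p ∈ 𝒱 t, F p x ≤ h t s}

end Crest.Agent.Perm
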