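import Mathlib
import Crest.Prelude.Def_MassAction
import Crest.Agent.Perm.Defs
set_option autoImplicit false

/-!
S0122, module Dom: dominance of the downhill reactions.
-/

namespace Crest.Agent.Perm
open Finset Crest.AnalysisR.MassAction

namespace Dom

/-- level of a complex -/
noncomputable def lev {d : ℕ} (n : Fin d → ℝ) (y : Fin d → ℕ) : ℝ := ∑ a, n a * (y a : ℝ)

theorem sum_reactionVector {d : ℕ} (n : Fin d → ℝ) (r : (Fin d → ℕ) × (Fin d → ℕ)) :
    ∑ a, n a * reactionVector r a = lev n r.2 - lev n r.1 := by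
  unfold lev reactionVector
  rw [← Finset.sum_sub_distrib]
  refine Finset.sum_congr rfl fun a _ => ?_
  ring

/-- on a path which goes down there is a big step starting above the end point -/
theorem path_drop {d : ℕ} (R : Network d) {y z : Fin d → ℕ}
    (h : Relation.ReflTransGen (fun a b => (a, b) ∈ R) y z) :
    ∃ L : ℕ, ∀ n : Fin d → ℝ, lev n z < lev n y →
      ∃ r ∈ R, lev n z < lev n r.1 ∧ lev n y - lev n z ≤ L * (lev n r.1 - lev n r.2) := by
  induction h using Relation.ReflTransGen.head_induction_on with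
  | refl => exact ⟨0, fun n hn => absurd hn (lt_irrefl _)⟩
  | @head y y' hstep _ ih =>
    obtain ⟨L, hL⟩ := ih
    refine ⟨L + 1, fun n hn => ?_⟩
    rcases le_or_gt (lev n y') (lev n z) with h1 | h1
    · refine ⟨(y, y'), hstep, hn, ?_⟩
      push_cast
      have h2 : 0 ≤ (L : ℝ) * (lev n y - lev n y') := by
        apply mul_nonneg (Nat.cast_nonneg _); linarith
      nlinarith
    · obtain ⟨r, hr, hr1, hr2⟩ := hL n h1
      have hL0 : (0 : ℝ) ≤ L := Nat.cast_nonneg _
      rcases le_or_gt (lev n y - lev n y') (lev n r.1 - lev n r.2) with h2 | h2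
      · refine ⟨r, hr, hr1, ?_⟩
        push_cast
        nlinarith
      · refine ⟨(y, y'), hstep, hn, ?_⟩
        push_cast
        have h3 : (L : ℝ) * (lev n r.1 - lev n r.2) ≤ L * (lev n y - lev n y') :=
          mul_le_mul_of_nonneg_left h2.le hL0
        nlinarith

theorem mono_eq_exp {d : ℕ} (x : Fin d → ℝ) (hx : ∀ a, 0 < x a) (y : Fin d → ℕ) :
    ∏ i, x i ^ y i = Real.exp (∑ a, (y a : ℝ) * Real.log (x a)) := by
  rw [Real.exp_sum]
  refine Finset.prod_congr rfl fun a _ => ?_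
  rw [← Real.log_pow, Real.exp_log (pow_pos (hx a) _)]

end Dom

open Dom

theorem dominance {d : ℕ} (R : Network d) (hR : IsWeaklyReversible R)
    (k : (Fin d → ℕ) × (Fin d → ℕ) → ℝ) (hk : ∀ r ∈ R, 0 < k r) :
    ∃ (B0 : ℕ) (δ : ℝ), 1 ≤ B0 ∧ 0 < δ ∧ ∀ n x : Fin d → ℝ, (∀ a, 0 < x a) →
      (∀ e : Fin d → ℤ, (∀ a, |e a| ≤ (B0 : ℤ)) → 0 < dz e n →
        δ ≤ ∑ a, (e a : ℝ) * Real.log (x a)) →
      (∃ r ∈ R, ∑ a, n a * reactionVector r a ≠ 0) →
      ∑ a, n a * field R k x a < 0 := by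
  classical
  have hpath : ∀ r ∈ R, ∃ L : ℕ, ∀ n : Fin d → ℝ, lev n r.1 < lev n r.2 →
      ∃ r' ∈ R, lev n r.1 < lev n r'.1 ∧ lev n r.2 - lev n r.1 ≤ L * (lev n r'.1 - lev n r'.2) :=
    fun r hr => path_drop R (hR r hr)
  choose! L hL using hpath
  set Lm : ℕ := ∑ r ∈ R, L r with hLm
  set Q : ℝ := (∑ r ∈ R, k r) * (∑ r ∈ R, (k r)⁻¹) with hQ
  have hQ0 : 0 ≤ Q := mul_nonneg (Finset.sum_nonneg fun r hr => (hk r hr).le)
    (Finset.sum_nonneg fun r hr => (inv_pos.mpr (hk r hr)).le)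
  have hkQ : ∀ r ∈ R, ∀ r' ∈ R, k r ≤ Q * k r' := by
    intro r hr r' hr'
    have h1 : k r ≤ ∑ r ∈ R, k r :=
      Finset.single_le_sum (f := k) (fun s hs => (hk s hs).le) hr
    have h2 : (k r')⁻¹ ≤ ∑ r ∈ R, (k r)⁻¹ :=
      Finset.single_le_sum (f := fun s => (k s)⁻¹) (fun s hs => (inv_pos.mpr (hk s hs)).le) hr'
    have h3 : k r * (k r')⁻¹ ≤ Q :=
      mul_le_mul h1 h2 (inv_pos.mpr (hk r' hr')).le (le_trans (hk r hr).le h1)
    have h4 := mul_le_mul_of_nonneg_right h3 (hk r' hr').le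
    rwa [mul_assoc, inv_mul_cancel₀ (hk r' hr').ne', mul_one] at h4
  set C : ℝ := R.card * (Q * Lm) with hC
  have hC0 : 0 ≤ C := by positivity
  set δ : ℝ := Real.log (2 * C + 2) with hδ
  have hδpos : 0 < δ := Real.log_pos (by linarith)
  set B0 : ℕ := 1 + ∑ r ∈ R, ∑ a, (r.1 a + r.2 a) with hB0
  refine ⟨B0, δ, by omega, hδpos, ?_⟩
  intro n x hx hdom hex
  -- the bound on coefficients
  have hcoef : ∀ r ∈ R, ∀ r' ∈ R, ∀ a, |((r'.1 a : ℤ) - (r.1 a : ℤ))| ≤ (B0 : ℤ) := by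
    intro r hr r' hr' a
    have h1 : ∀ s ∈ R, s.1 a ≤ B0 := by
      intro s hs
      have h2 : s.1 a + s.2 a ≤ ∑ a, (s.1 a + s.2 a) :=
        Finset.single_le_sum (f := fun a => s.1 a + s.2 a) (fun _ _ => Nat.zero_le _)
          (Finset.mem_univ a)
      have h3 : ∑ a, (s.1 a + s.2 a) ≤ ∑ r ∈ R, ∑ a, (r.1 a + r.2 a) :=
        Finset.single_le_sum (f := fun s : (Fin d → ℕ) × (Fin d → ℕ) => ∑ a, (s.1 a + s.2 a))
          (fun _ _ => Nat.zero_le _) hs
      omega
    have h4 := h1 r hr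
    have h5 := h1 r' hr'
    rw [abs_le]
    constructor <;> omega
  -- comparison of monomials
  have hmono : ∀ r ∈ R, ∀ r' ∈ R, lev n r.1 < lev n r'.1 →
      (2 * C + 2) * ∏ i, x i ^ r.1 i ≤ ∏ i, x i ^ r'.1 i := by
    intro r hr r' hr' hlt
    have h1 := hdom (fun a => (r'.1 a : ℤ) - (r.1 a : ℤ)) (hcoef r hr r' hr') (by
      have : dz (fun a => (r'.1 a : ℤ) - (r.1 a : ℤ)) n = lev n r'.1 - lev n r.1 := by
        unfold dz lev
        rw [← Finset.sum_sub_distrib]
        refine Finset.sum_congr rfl fun a _ => ?_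
        push_cast; ring
      rw [this]; linarith)
    have h2 : ∑ a, (((r'.1 a : ℤ) - (r.1 a : ℤ) : ℤ) : ℝ) * Real.log (x a) =
        ∑ a, (r'.1 a : ℝ) * Real.log (x a) - ∑ a, (r.1 a : ℝ) * Real.log (x a) := by
      rw [← Finset.sum_sub_distrib]
      refine Finset.sum_congr rfl fun a _ => ?_
      push_cast; ring
    rw [h2] at h1
    rw [mono_eq_exp x hx, mono_eq_exp x hx]
    have h3 : (2 * C + 2) = Real.exp δ := by rw [hδ, Real.exp_log (by linarith)]
    rw [h3, ← Real.exp_add]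
    exact Real.exp_le_exp.mpr (by linarith)
  have hxpos : ∀ y : Fin d → ℕ, 0 < ∏ i, x i ^ y i := fun y =>
    Finset.prod_pos fun i _ => pow_pos (hx i) _
  -- the value
  have hval : ∑ a, n a * field R k x a =
      ∑ r ∈ R, (k r * ∏ i, x i ^ r.1 i) * (lev n r.2 - lev n r.1) := by
    have h1 : ∀ a, field R k x a = ∑ r ∈ R, (k r * ∏ i, x i ^ r.1 i) * reactionVector r a := by
      intro a
      unfold field
      rw [Finset.sum_apply]
      refine Finset.sum_congr rfl fun r _ => ?_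
      simp
    simp only [h1, Finset.mul_sum]
    rw [Finset.sum_comm]
    refine Finset.sum_congr rfl fun r _ => ?_
    rw [← sum_reactionVector, Finset.mul_sum]
    refine Finset.sum_congr rfl fun a _ => ?_
    ring
  rw [hval]
  set Dn : ℝ := ∑ r ∈ R, (k r * ∏ i, x i ^ r.1 i) * max (lev n r.1 - lev n r.2) 0 with hDn
  have hterm0 : ∀ r ∈ R, 0 ≤ (k r * ∏ i, x i ^ r.1 i) * max (lev n r.1 - lev n r.2) 0 :=
    fun r hr => mul_nonneg (mul_pos (hk r hr) (hxpos _)).le (le_max_right _ _)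
  have hsingle : ∀ r ∈ R, (k r * ∏ i, x i ^ r.1 i) * (lev n r.1 - lev n r.2) ≤ Dn := by
    intro r hr
    refine le_trans ?_ (Finset.single_le_sum (f := fun r : (Fin d → ℕ) × (Fin d → ℕ) =>
      (k r * ∏ i, x i ^ r.1 i) * max (lev n r.1 - lev n r.2) 0) hterm0 hr)
    exact mul_le_mul_of_nonneg_left (le_max_left _ _) (mul_pos (hk r hr) (hxpos _)).le
  have hDn0 : 0 ≤ Dn := Finset.sum_nonneg hterm0
  -- a downhill reaction exists
  have hDpos : 0 < Dn := by
    obtain ⟨r, hr, hne⟩ := hex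
    rw [sum_reactionVector] at hne
    rcases lt_or_gt_of_ne hne with h | h
    · have h1 : 0 < (k r * ∏ i, x i ^ r.1 i) * (lev n r.1 - lev n r.2) :=
        mul_pos (mul_pos (hk r hr) (hxpos _)) (by linarith)
      exact lt_of_lt_of_le h1 (hsingle r hr)
    · obtain ⟨r', hr', _, h2⟩ := hL r hr n (by linarith)
      have h3 : 0 < lev n r'.1 - lev n r'.2 := by
        by_contra hcon
        push Not at hcon
        have : (L r : ℝ) * (lev n r'.1 - lev n r'.2) ≤ 0 :=
          mul_nonpos_of_nonneg_of_nonpos (Nat.cast_nonneg _) hcon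
        linarith
      have h1 : 0 < (k r' * ∏ i, x i ^ r'.1 i) * (lev n r'.1 - lev n r'.2) :=
        mul_pos (mul_pos (hk r' hr') (hxpos _)) h3
      exact lt_of_lt_of_le h1 (hsingle r' hr')
  -- each uphill reaction is dominated
  have hup : ∀ r ∈ R, (2 * C + 2) * ((k r * ∏ i, x i ^ r.1 i) * max (lev n r.2 - lev n r.1) 0) ≤
      Q * Lm * Dn := by
    intro r hr
    rcases le_or_gt (lev n r.2 - lev n r.1) 0 with h | h
    · rw [max_eq_right h, mul_zero, mul_zero]; positivity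
    · rw [max_eq_left h.le]
      obtain ⟨r', hr', h1, h2⟩ := hL r hr n (by linarith)
      have hLr : (L r : ℝ) ≤ Lm := by
        exact_mod_cast Finset.single_le_sum (f := L) (fun _ _ => Nat.zero_le _) hr
      have h3 : 0 < lev n r'.1 - lev n r'.2 := by
        by_contra hcon
        push Not at hcon
        have : (L r : ℝ) * (lev n r'.1 - lev n r'.2) ≤ 0 :=
          mul_nonpos_of_nonneg_of_nonpos (Nat.cast_nonneg _) hcon
        linarith
      have h4 : lev n r.2 - lev n r.1 ≤ Lm * (lev n r'.1 - lev n r'.2) :=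
        le_trans h2 (mul_le_mul_of_nonneg_right hLr h3.le)
      have h5 := hmono r hr r' hr' h1
      have h6 := hkQ r hr r' hr'
      have hx1 := hxpos r.1
      have hx2 := hxpos r'.1
      have hkr := hk r hr
      have hkr' := hk r' hr'
      calc (2 * C + 2) * ((k r * ∏ i, x i ^ r.1 i) * (lev n r.2 - lev n r.1))
          = (k r * ((2 * C + 2) * ∏ i, x i ^ r.1 i)) * (lev n r.2 - lev n r.1) := by ring
        _ ≤ ((Q * k r') * ∏ i, x i ^ r'.1 i) * (Lm * (lev n r'.1 - lev n r'.2)) := by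
            apply mul_le_mul _ h4 h.le (by positivity)
            exact mul_le_mul h6 h5 (by positivity) (by positivity)
        _ = Q * Lm * ((k r' * ∏ i, x i ^ r'.1 i) * (lev n r'.1 - lev n r'.2)) := by ring
        _ ≤ Q * Lm * Dn := mul_le_mul_of_nonneg_left (hsingle r' hr') (by positivity)
  set Up : ℝ := ∑ r ∈ R, (k r * ∏ i, x i ^ r.1 i) * max (lev n r.2 - lev n r.1) 0 with hUp
  have hUpD : (2 * C + 2) * Up ≤ C * Dn := by
    rw [hUp, Finset.mul_sum]
    calc _ ≤ ∑ r ∈ R, Q * Lm * Dn := Finset.sum_le_sum hup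
      _ = C * Dn := by rw [Finset.sum_const, nsmul_eq_mul, hC]; ring
  have hsplit : ∑ r ∈ R, (k r * ∏ i, x i ^ r.1 i) * (lev n r.2 - lev n r.1) = Up - Dn := by
    rw [hUp, hDn, ← Finset.sum_sub_distrib]
    refine Finset.sum_congr rfl fun r _ => ?_
    rw [← mul_sub]
    congr 1
    rcases le_total (lev n r.1) (lev n r.2) with h | h
    · rw [max_eq_left (by linarith), max_eq_right (by linarith)]; ring
    · rw [max_eq_right (by linarith), max_eq_left (by linarith)]; ring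
  rw [hsplit]
  by_contra hcon
  push Not at hcon
  have h1 : Dn ≤ Up := by linarith
  nlinarith

end Crest.Agent.Perm
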