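import Mathlib
import Crest.Prelude.Def_MassAction
set_option autoImplicit false

/-!
S0122, module Flow: solutions of ODEs.
-/

namespace Crest.Agent.Perm
open Crest.AnalysisR.MassAction
open scoped NNReal

private theorem ivl_solution {d : ℕ} (f : (Fin d → ℝ) → (Fin d → ℝ)) (K : NNReal)
    (hf : LipschitzWith K f) (M : ℝ) (hM : ∀ x, ‖f x‖ ≤ M) (x₀ : Fin d → ℝ) (T : ℝ) (hT : 0 ≤ T) :
    ∃ α : ℝ → (Fin d → ℝ), α 0 = x₀ ∧
      ∀ t ∈ Set.Icc (0:ℝ) T, HasDerivWithinAt α (f (α t)) (Set.Icc 0 T) t := by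
  have hM0 : 0 ≤ M := (norm_nonneg _).trans (hM x₀)
  let L : ℝ≥0 := ⟨M, hM0⟩
  let a : ℝ≥0 := ⟨M * T, mul_nonneg hM0 hT⟩
  have hPL : IsPicardLindelof (fun _ => f) (tmin := 0) (tmax := T)
      ⟨0, le_rfl, hT⟩ x₀ a 0 L K :=
    IsPicardLindelof.of_time_independent (fun x _ => hM x) hf.lipschitzOnWith (by
      simp only [sub_zero, sub_self, NNReal.coe_zero]
      rw [max_eq_left hT]
      exact le_rfl)
  obtain ⟨α, hα0, hα⟩ := hPL.exists_eq_forall_mem_Icc_hasDerivWithinAt₀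
  exact ⟨α, hα0, hα⟩

private theorem ivl_unique {d : ℕ} (f : (Fin d → ℝ) → (Fin d → ℝ)) (Q : Set (Fin d → ℝ))
    (K : NNReal) (hf : LipschitzOnWith K f Q) (T : ℝ) (α β : ℝ → (Fin d → ℝ))
    (hα : ∀ t ∈ Set.Icc (0:ℝ) T, HasDerivWithinAt α (f (α t)) (Set.Icc 0 T) t)
    (hβ : ∀ t ∈ Set.Icc (0:ℝ) T, HasDerivWithinAt β (f (β t)) (Set.Icc 0 T) t)
    (hαQ : ∀ t ∈ Set.Icc (0:ℝ) T, α t ∈ Q) (hβQ : ∀ t ∈ Set.Icc (0:ℝ) T, β t ∈ Q)
    (h0 : α 0 = β 0) : Set.EqOn α β (Set.Icc 0 T) := by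
  have hr : ∀ γ : ℝ → (Fin d → ℝ),
      (∀ t ∈ Set.Icc (0:ℝ) T, HasDerivWithinAt γ (f (γ t)) (Set.Icc 0 T) t) →
      ∀ t ∈ Set.Ico (0:ℝ) T, HasDerivWithinAt γ (f (γ t)) (Set.Ici t) t := by
    intro γ hγ t ht
    refine (hγ t ⟨ht.1, ht.2.le⟩).mono_of_mem_nhdsWithin ?_
    exact Filter.mem_of_superset (Icc_mem_nhdsGE ht.2) (Set.Icc_subset_Icc_left ht.1)
  exact ODE_solution_unique_of_mem_Icc_right (v := fun _ => f) (s := fun _ => Q) (K := K)
    (fun t _ => hf)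
    (fun t ht => (hα t ht).continuousWithinAt) (hr α hα)
    (fun t ht => hαQ t ⟨ht.1, ht.2.le⟩)
    (fun t ht => (hβ t ht).continuousWithinAt) (hr β hβ)
    (fun t ht => hβQ t ⟨ht.1, ht.2.le⟩) h0

/-- global solutions of bounded globally Lipschitz fields -/
theorem exists_global_solution {d : ℕ} (f : (Fin d → ℝ) → (Fin d → ℝ)) (K : NNReal)
    (hf : LipschitzWith K f) (M : ℝ) (hM : ∀ x, ‖f x‖ ≤ M) (x₀ : Fin d → ℝ) :
    ∃ x : ℝ → (Fin d → ℝ), IsForwardSolution f x ∧ x 0 = x₀ := by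
  choose α hα0 hα using fun n : ℕ =>
    ivl_solution f K hf M hM x₀ ((n : ℝ) + 1) (by positivity)
  -- consistency
  have hcons : ∀ n m : ℕ, n ≤ m → Set.EqOn (α n) (α m) (Set.Icc 0 ((n : ℝ) + 1)) := by
    intro n m hnm
    have hnm' : (n : ℝ) + 1 ≤ (m : ℝ) + 1 := by
      have : (n : ℝ) ≤ m := by exact_mod_cast hnm
      linarith
    refine ivl_unique f Set.univ K hf.lipschitzOnWith _ _ _ (hα n) ?_ (fun _ _ => trivial)
      (fun _ _ => trivial) ((hα0 n).trans (hα0 m).symm)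
    intro t ht
    exact (hα m t ⟨ht.1, ht.2.trans hnm'⟩).mono (Set.Icc_subset_Icc_right hnm')
  have hcons' : ∀ n m : ℕ, ∀ s : ℝ, 0 ≤ s → s ≤ (n : ℝ) + 1 → s ≤ (m : ℝ) + 1 →
      α n s = α m s := by
    intro n m s hs h1 h2
    rcases le_total n m with h | h
    · exact hcons n m h ⟨hs, h1⟩
    · exact (hcons m n h ⟨hs, h2⟩).symm
  refine ⟨fun t => α (⌊t⌋₊) t, ?_, ?_⟩
  · intro t ht
    set N : ℕ := ⌊t⌋₊ with hN
    have htN : t < (N : ℝ) + 1 := Nat.lt_floor_add_one t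
    have h1 : HasDerivWithinAt (α N) (f (α N t)) (Set.Ici 0) t := by
      refine (hα N t ⟨ht, htN.le⟩).mono_of_mem_nhdsWithin ?_
      have : Set.Iio ((N : ℝ) + 1) ∈ nhds t := Iio_mem_nhds htN
      filter_upwards [mem_nhdsWithin_of_mem_nhds this, self_mem_nhdsWithin] with s hs hs'
      exact ⟨hs', (Set.mem_Iio.mp hs).le⟩
    refine h1.congr_of_eventuallyEq ?_ rfl
    have : Set.Iio ((N : ℝ) + 1) ∈ nhds t := Iio_mem_nhds htN
    filter_upwards [mem_nhdsWithin_of_mem_nhds this, self_mem_nhdsWithin] with s hs hs'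
    exact hcons' _ _ s hs' (Nat.lt_floor_add_one s).le (Set.mem_Iio.mp hs).le
  · simpa using hα0 0

/-- uniqueness of solutions staying in a box on which the field is Lipschitz -/
theorem unique_solution {d : ℕ} (f : (Fin d → ℝ) → (Fin d → ℝ)) (Q : Set (Fin d → ℝ))
    (K : NNReal) (hf : LipschitzOnWith K f Q) (x x' : ℝ → (Fin d → ℝ))
    (hx : IsForwardSolution f x) (hx' : IsForwardSolution f x')
    (hxQ : ∀ t, 0 ≤ t → x t ∈ Q) (hxQ' : ∀ t, 0 ≤ t → x' t ∈ Q) (h0 : x 0 = x' 0) :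
    ∀ t, 0 ≤ t → x t = x' t := by
  intro t ht
  refine ivl_unique f Q K hf t x x' ?_ ?_ (fun s hs => hxQ s hs.1) (fun s hs => hxQ' s hs.1) h0
    ⟨ht, le_rfl⟩
  · intro s hs
    exact (hx s hs.1).mono Set.Icc_subset_Ici_self
  · intro s hs
    exact (hx' s hs.1).mono Set.Icc_subset_Ici_self

/-- solutions stay in the affine class -/
theorem solution_mem_class {d : ℕ} (f : (Fin d → ℝ) → (Fin d → ℝ))
    (S : Submodule ℝ (Fin d → ℝ)) (hS : ∀ x, f x ∈ S) (x : ℝ → (Fin d → ℝ))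
    (hx : IsForwardSolution f x) (t : ℝ) (ht : 0 ≤ t) : x t - x 0 ∈ S := by
  by_contra hmem
  obtain ⟨φ, hφ1, hφ2⟩ := Submodule.exists_dual_map_eq_bot_of_notMem hmem inferInstance
  have hφS : ∀ y ∈ S, φ y = 0 := by
    intro y hy
    have : φ y ∈ S.map φ := Submodule.mem_map_of_mem hy
    rw [hφ2] at this
    simpa using this
  let ψ : (Fin d → ℝ) →L[ℝ] ℝ := LinearMap.toContinuousLinearMap φ
  have hψ : ∀ y, ψ y = φ y := fun y => rfl
  have hder : ∀ s ∈ Set.Ico (0:ℝ) t, HasDerivWithinAt (fun s => ψ (x s)) 0 (Set.Ici s) s := by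
    intro s hs
    have h1 := (hx s hs.1).mono (Set.Ici_subset_Ici.mpr hs.1)
    have h2 := ψ.hasFDerivAt.comp_hasDerivWithinAt s h1
    have h3 : ψ (f (x s)) = 0 := by rw [hψ]; exact hφS _ (hS _)
    rw [h3] at h2
    exact h2
  have hcont : ContinuousOn (fun s => ψ (x s)) (Set.Icc 0 t) := by
    intro s hs
    have h1 : ContinuousWithinAt x (Set.Icc 0 t) s :=
      (hx s hs.1).continuousWithinAt.mono Set.Icc_subset_Ici_self
    exact ψ.continuous.continuousAt.comp_continuousWithinAt h1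
  have hconst := constant_of_has_deriv_right_zero hcont hder t ⟨ht, le_rfl⟩
  apply hφ1
  rw [map_sub, sub_eq_zero]
  exact hconst

end Crest.Agent.Perm
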