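import Mathlib
import Crest.Prelude.Def_MassAction
import Crest.Agent.Perm.Defs

/-! S0122, structure `Trap`: the standing hypotheses on a trapping family. -/

set_option autoImplicit false

namespace Crest.Agent.Perm
open Finset Crest.AnalysisR.MassAction

section Trap
variable {d : ℕ} {τ : Type} [Fintype τ] (𝒱 : τ → Set ((Fin d → ℝ) × ℝ)) (h : τ → ℝ → ℝ)
  (s₀ : ℝ) (c : Fin d → ℝ) (f : (Fin d → ℝ) → (Fin d → ℝ)) (S : Submodule ℝ (Fin d → ℝ))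

/-- the standing hypotheses on the trapping family -/
structure Trap : Prop where
  mono : ∀ t, StrictMonoOn (h t) (Set.Ici s₀)
  cont : ∀ t, ContinuousOn (h t) (Set.Ici s₀)
  fin : ∀ t, ∀ ξ Ξ M : ℝ, 0 < ξ →
    {p ∈ 𝒱 t | ∃ x : Fin d → ℝ, (∀ a, ξ ≤ x a ∧ x a ≤ Ξ) ∧ -M ≤ F p x}.Finite
  bdd : ∀ s, s₀ ≤ s → ∃ ξ Ξ : ℝ, 0 < ξ ∧ ∀ x ∈ Kset 𝒱 h s, ∀ a, ξ ≤ x a ∧ x a ≤ Ξ
  exh : ∀ x : Fin d → ℝ, (∀ a, 0 < x a) → ∃ s, s₀ ≤ s ∧ x ∈ Kset 𝒱 h s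
  dec : ∀ s, s₀ ≤ s → ∀ x ∈ Kset 𝒱 h s, x - c ∈ S → ∀ t, ∀ p ∈ 𝒱 t, F p x = h t s →
    ∑ a, p.1 a * f x a < 0

end Trap

end Crest.Agent.Perm
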