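import Mathlib
import Crest.Prelude.Def_MassAction
import Crest.Agent.Perm.Defs
import Crest.Agent.Perm.TrapDefs
import Crest.Agent.Perm.Flow

/-! S0122, module TrapA: trapping families, invariance. -/

set_option autoImplicit false

namespace Crest.Agent.Perm
open Finset Crest.AnalysisR.MassAction

section Trap
variable {d : ℕ} {τ : Type} [Fintype τ] {𝒱 : τ → Set ((Fin d → ℝ) × ℝ)} {h : τ → ℝ → ℝ}
  {s₀ : ℝ} {c : Fin d → ℝ} {f : (Fin d → ℝ) → (Fin d → ℝ)} {S : Submodule ℝ (Fin d → ℝ)}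


theorem continuous_F (p : (Fin d → ℝ) × ℝ) : Continuous (F p) := by
  unfold F
  fun_prop

omit [Fintype τ] in
/-- `Kset` is compact (module TrapA.lean) -/
theorem Trap.compact (T : Trap 𝒱 h s₀ c f S) (s : ℝ) (hs : s₀ ≤ s) :
    IsCompact (Kset 𝒱 h s) := by
  obtain ⟨ξ, Ξ, hξ, hb⟩ := T.bdd s hs
  have hcl : IsClosed {x : Fin d → ℝ | ∀ t, ∀ p ∈ 𝒱 t, F p x ≤ h t s} := by
    have e : {x : Fin d → ℝ | ∀ t, ∀ p ∈ 𝒱 t, F p x ≤ h t s} =
        ⋂ (t : τ) (p : (Fin d → ℝ) × ℝ) (_ : p ∈ 𝒱 t), {x | F p x ≤ h t s} := by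
      ext x; simp
    rw [e]
    exact isClosed_iInter fun t => isClosed_iInter fun p => isClosed_iInter fun _ =>
      isClosed_le (continuous_F p) continuous_const
  have e2 : Kset 𝒱 h s = Set.Icc (fun _ => ξ) (fun _ => Ξ) ∩
      {x : Fin d → ℝ | ∀ t, ∀ p ∈ 𝒱 t, F p x ≤ h t s} := by
    ext x
    constructor
    · intro hx
      exact ⟨⟨fun a => (hb x hx a).1, fun a => (hb x hx a).2⟩, hx.2⟩
    · rintro ⟨⟨h1, _⟩, h3⟩
      exact ⟨fun a => hξ.trans_le (h1 a), h3⟩
  rw [e2]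
  exact isCompact_Icc.inter_right hcl

theorem F_combo (p : (Fin d → ℝ) × ℝ) (x y : Fin d → ℝ) (α β : ℝ) (h : α + β = 1) :
    F p (α • x + β • y) = α * F p x + β * F p y := by
  unfold F
  simp only [Pi.add_apply, Pi.smul_apply, smul_eq_mul, mul_add, sum_add_distrib]
  have e1 : ∑ a, p.1 a * (α * x a) = α * ∑ a, p.1 a * x a := by
    rw [mul_sum]; exact sum_congr rfl fun a _ => by ring
  have e2 : ∑ a, p.1 a * (β * y a) = β * ∑ a, p.1 a * y a := by
    rw [mul_sum]; exact sum_congr rfl fun a _ => by ring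
  rw [e1, e2]
  have : p.2 = α * p.2 + β * p.2 := by rw [← add_mul, h, one_mul]
  linarith

omit [Fintype τ] in
theorem Kset_convex (s : ℝ) : Convex ℝ (Kset 𝒱 h s) := by
  intro x hx y hy α β hα hβ hαβ
  refine ⟨fun a => ?_, fun t p hp => ?_⟩
  · simp only [Pi.add_apply, Pi.smul_apply, smul_eq_mul]
    have h1 := hx.1 a
    have h2 := hy.1 a
    rcases hα.eq_or_lt with rfl | hα'
    · rw [zero_add] at hαβ
      rw [hαβ]; linarith
    · have := mul_pos hα' h1
      have := mul_nonneg hβ h2.le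
      linarith
  · rw [F_combo p x y α β hαβ]
    have h1 := mul_le_mul_of_nonneg_left (hx.2 t p hp) hα
    have h2 := mul_le_mul_of_nonneg_left (hy.2 t p hp) hβ
    have h3 : h t s = α * h t s + β * h t s := by rw [← add_mul, hαβ, one_mul]
    linarith

omit [Fintype τ] in
theorem Trap.mono_Kset (T : Trap 𝒱 h s₀ c f S) {s s' : ℝ} (hs : s₀ ≤ s) (hss : s ≤ s') :
    Kset 𝒱 h s ⊆ Kset 𝒱 h s' := by
  intro x hx
  refine ⟨hx.1, fun t p hp => (hx.2 t p hp).trans ?_⟩
  exact (T.mono t).monotoneOn hs (Set.mem_Ici.2 (hs.trans hss)) hss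

theorem solution_continuousOn {f' : (Fin d → ℝ) → (Fin d → ℝ)} {x : ℝ → (Fin d → ℝ)}
    (hx : IsForwardSolution f' x) : ContinuousOn x (Set.Ici 0) :=
  fun t ht => (hx t ht).continuousWithinAt

theorem solution_deriv_F {f' : (Fin d → ℝ) → (Fin d → ℝ)} {x : ℝ → (Fin d → ℝ)}
    (hx : IsForwardSolution f' x) (p : (Fin d → ℝ) × ℝ) {u : ℝ} (hu : 0 ≤ u) :
    HasDerivWithinAt (fun v => F p (x v)) (∑ a, p.1 a * f' (x u) a) (Set.Ici 0) u := by
  unfold F
  refine HasDerivWithinAt.add_const _ ?_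
  refine HasDerivWithinAt.fun_sum fun a _ => ?_
  refine HasDerivWithinAt.const_mul _ ?_
  exact (hasDerivWithinAt_pi.1 (hx u hu)) a

/-- a function with negative right derivative is smaller immediately afterwards -/
theorem eventually_lt_of_deriv_neg {φ : ℝ → ℝ} {m u : ℝ}
    (hφ : HasDerivWithinAt φ m (Set.Ici 0) u) (hu : 0 ≤ u) (hm : m < 0) :
    ∀ᶠ v in nhdsWithin u (Set.Ioi u), φ v < φ u := by
  have h1 : HasDerivWithinAt φ m (Set.Ioi u) u :=
    hφ.mono fun v hv => le_trans hu (le_of_lt hv)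
  rw [hasDerivWithinAt_iff_tendsto_slope' (by simp)] at h1
  have h2 := h1.eventually_lt_const hm
  filter_upwards [h2, self_mem_nhdsWithin] with v hv hv'
  have h3 : 0 < v - u := sub_pos.2 hv'
  rw [slope_def_field, div_lt_iff₀ h3, zero_mul] at hv
  linarith

/-- Invariance (module TrapA.lean). It is stated for a field `f'` which agrees with `f` near
the class, so that it also applies to the truncated field. -/
theorem Trap.invariant (T : Trap 𝒱 h s₀ c f S) (hS : ∀ x, f x ∈ S) (s : ℝ) (hs : s₀ ≤ s)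
    (f' : (Fin d → ℝ) → (Fin d → ℝ)) (hf' : ∀ x ∈ Kset 𝒱 h s, f' x = f x)
    (hS' : ∀ x, f' x ∈ S) (x : ℝ → (Fin d → ℝ))
    (hx : IsForwardSolution f' x) (hx0 : x 0 ∈ Kset 𝒱 h s) (hxc : x 0 - c ∈ S) :
    ∀ t, 0 ≤ t → x t ∈ Kset 𝒱 h s := by
  intro t₁ ht₁
  have hcont := solution_continuousOn hx
  have hKc : IsClosed (Kset 𝒱 h s) := (T.compact s hs).isClosed
  have hclosed : IsClosed ({u | x u ∈ Kset 𝒱 h s} ∩ Set.Icc 0 t₁) := by
    have := (hcont.mono (fun v (hv : v ∈ Set.Icc 0 t₁) => hv.1)).preimage_isClosed_of_isClosed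
      isClosed_Icc hKc
    rwa [Set.inter_comm] at this
  refine hclosed.Icc_subset_of_forall_mem_nhdsWithin hx0 ?_ ⟨ht₁, le_rfl⟩
  rintro u ⟨hu, hu0, -⟩
  have hu' : x u ∈ Kset 𝒱 h s := hu
  have hclass : x u - c ∈ S := by
    have h1 := S.add_mem (solution_mem_class f' S hS' x hx u hu0) hxc
    simpa using h1
  have hcu : ContinuousWithinAt x (Set.Ioi u) u :=
    (hcont u hu0).mono fun v hv => le_trans hu0 (le_of_lt hv)
  have hca : ∀ a, ContinuousWithinAt (fun v => x v a) (Set.Ioi u) u := fun a =>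
    (continuous_apply a).continuousAt.comp_continuousWithinAt hcu
  -- the box
  obtain ⟨ξ, Ξ, hξ, hb⟩ := T.bdd s hs
  have hbox : ∀ᶠ v in nhdsWithin u (Set.Ioi u), ∀ a, ξ / 2 ≤ x v a ∧ x v a ≤ Ξ + 1 := by
    refine Filter.eventually_all.2 fun a => ?_
    have h1 := (hca a).tendsto.eventually_const_lt (u := ξ / 2) (by
      have := (hb _ hu' a).1; linarith)
    have h2 := (hca a).tendsto.eventually_lt_const (u := Ξ + 1) (by
      have := (hb _ hu' a).2; linarith)
    filter_upwards [h1, h2] with v h1 h2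
    exact ⟨h1.le, h2.le⟩
  have hmain : ∀ t, ∀ᶠ v in nhdsWithin u (Set.Ioi u), ∀ p ∈ 𝒱 t, F p (x v) ≤ h t s := by
    intro t
    have hfin := T.fin t (ξ / 2) (Ξ + 1) (-h t s) (by linarith)
    have h1 : ∀ᶠ v in nhdsWithin u (Set.Ioi u),
        ∀ p ∈ {p ∈ 𝒱 t | ∃ x : Fin d → ℝ, (∀ a, ξ / 2 ≤ x a ∧ x a ≤ Ξ + 1) ∧
          -(-h t s) ≤ F p x}, F p (x v) ≤ h t s := by
      refine (Filter.eventually_all_finite hfin).2 fun p hp => ?_
      rcases (hu'.2 t p hp.1).lt_or_eq with hlt | heq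
      · have h2 : ContinuousWithinAt (fun v => F p (x v)) (Set.Ioi u) u :=
          (continuous_F p).continuousAt.comp_continuousWithinAt hcu
        exact (h2.tendsto.eventually_lt_const hlt).mono fun v hv => hv.le
      · have hneg := T.dec s hs (x u) hu' hclass t p hp.1 heq
        rw [← hf' _ hu'] at hneg
        have h3 := eventually_lt_of_deriv_neg (solution_deriv_F hx p hu0) hu0 hneg
        exact h3.mono fun v hv => hv.le.trans heq.le
    filter_upwards [h1, hbox] with v h1 h2 p hp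
    by_cases hc : h t s ≤ F p (x v)
    · exact h1 p ⟨hp, x v, h2, by rw [neg_neg]; exact hc⟩
    · exact (not_le.1 hc).le
  have hall := Filter.eventually_all.2 hmain
  filter_upwards [hall, hbox] with v h1 h2
  exact ⟨fun a => lt_of_lt_of_le (by linarith) (h2 a).1, h1⟩

end Trap

end Crest.Agent.Perm
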