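import Crest.Agent.Perm.TrapDefs
import Crest.Agent.Perm.TrapA
import Crest.Agent.Perm.Flow

/-! S0122, module TrapB: absorption. -/

set_option autoImplicit false

namespace Crest.Agent.Perm

open Finset Crest.AnalysisR.MassAction

section Trap
variable {d : ℕ} {τ : Type} [Fintype τ] {𝒱 : τ → Set ((Fin d → ℝ) × ℝ)} {h : τ → ℝ → ℝ}
  {s₀ : ℝ} {c : Fin d → ℝ} {f : (Fin d → ℝ) → (Fin d → ℝ)} {S : Submodule ℝ (Fin d → ℝ)}


/-- local structure at a point of `Kset s` in the class -/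
theorem Trap.local (T : Trap 𝒱 h s₀ c f S) (hf : Continuous f) (s : ℝ) (hs : s₀ ≤ s)
    (z : Fin d → ℝ) (hz : z ∈ Kset 𝒱 h s) (hzc : z - c ∈ S) :
    ∃ r : ℝ, 0 < r ∧ (∀ y, dist y z < r → ∀ a, 0 < y a) ∧ ∀ t, ∀ p ∈ 𝒱 t,
      (∀ y, dist y z < r → F p y ≤ h t s - r) ∨
      (∀ y, dist y z < r → ∑ a, p.1 a * f y a ≤ -r) := by
  classical
  obtain ⟨ξ, Ξ, hξ, hbox⟩ := T.bdd s hs
  set M : ℝ := ∑ t, |h t s| + 1 with hM
  have hfin : ∀ t, {p ∈ 𝒱 t | ∃ x : Fin d → ℝ, (∀ a, ξ / 2 ≤ x a ∧ x a ≤ Ξ + ξ / 2) ∧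
      -M ≤ F p x}.Finite := fun t => T.fin t _ _ M (by positivity)
  have hnear : ∀ y, dist y z < ξ / 2 → ∀ a, ξ / 2 ≤ y a ∧ y a ≤ Ξ + ξ / 2 := by
    intro y hy a
    have h1 : |y a - z a| < ξ / 2 := by
      have := dist_le_pi_dist y z a
      rw [Real.dist_eq] at this
      linarith
    have h2 := hbox z hz a
    rw [abs_lt] at h1
    constructor <;> linarith [h1.1, h1.2, h2.1, h2.2]
  have key : ∀ t, ∀ p ∈ {p ∈ 𝒱 t | ∃ x : Fin d → ℝ, (∀ a, ξ / 2 ≤ x a ∧ x a ≤ Ξ + ξ / 2) ∧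
      -M ≤ F p x}, ∀ᶠ r in nhdsWithin (0 : ℝ) (Set.Ioi 0),
      (∀ y, dist y z < r → F p y ≤ h t s - r) ∨
      (∀ y, dist y z < r → ∑ a, p.1 a * f y a ≤ -r) := by
    intro t p hp
    rcases (hz.2 t p hp.1).lt_or_eq with hlt | heq
    · -- not active
      set e : ℝ := (h t s - F p z) / 2 with he
      have hepos : 0 < e := by rw [he]; linarith
      have h1 : ∀ᶠ y in nhds z, F p y < F p z + e :=
        (continuous_F p).continuousAt.eventually (gt_mem_nhds (by linarith))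
      obtain ⟨ρ, hρ, hρ'⟩ := Metric.eventually_nhds_iff.mp h1
      filter_upwards [Ioo_mem_nhdsGT (show (0 : ℝ) < min ρ e from lt_min hρ hepos)] with r hr
      left
      intro y hy
      have h2 := hρ' (lt_of_lt_of_le hy (hr.2.le.trans (min_le_left _ _)))
      have h3 := hr.2.le.trans (min_le_right _ _)
      linarith
    · have hd := T.dec s hs z hz hzc t p hp.1 heq
      set e : ℝ := -(∑ a, p.1 a * f z a) / 2 with he
      have hepos : 0 < e := by rw [he]; linarith
      have hcont : Continuous fun y => ∑ a, p.1 a * f y a := by fun_prop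
      have h1 : ∀ᶠ y in nhds z, ∑ a, p.1 a * f y a < (∑ a, p.1 a * f z a) + e :=
        hcont.continuousAt.eventually (gt_mem_nhds (by linarith))
      obtain ⟨ρ, hρ, hρ'⟩ := Metric.eventually_nhds_iff.mp h1
      filter_upwards [Ioo_mem_nhdsGT (show (0 : ℝ) < min ρ e from lt_min hρ hepos)] with r hr
      right
      intro y hy
      have h2 := hρ' (lt_of_lt_of_le hy (hr.2.le.trans (min_le_left _ _)))
      have h3 := hr.2.le.trans (min_le_right _ _)
      linarith
  have hall : ∀ᶠ r in nhdsWithin (0 : ℝ) (Set.Ioi 0), ∀ t, ∀ p ∈ {p ∈ 𝒱 t |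
      ∃ x : Fin d → ℝ, (∀ a, ξ / 2 ≤ x a ∧ x a ≤ Ξ + ξ / 2) ∧ -M ≤ F p x},
      (∀ y, dist y z < r → F p y ≤ h t s - r) ∨
      (∀ y, dist y z < r → ∑ a, p.1 a * f y a ≤ -r) := by
    rw [Filter.eventually_all]
    intro t
    rw [Filter.eventually_all_finite (hfin t)]
    exact key t
  have hsmall : ∀ᶠ r in nhdsWithin (0 : ℝ) (Set.Ioi 0), 0 < r ∧ r < min (ξ / 2) 1 :=
    Ioo_mem_nhdsGT (lt_min (by positivity) one_pos)
  obtain ⟨r, hr, hr0, hr1⟩ := (hall.and hsmall).exists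
  have hrξ : r < ξ / 2 := lt_of_lt_of_le hr1 (min_le_left _ _)
  have hr1' : r < 1 := lt_of_lt_of_le hr1 (min_le_right _ _)
  refine ⟨r, hr0, fun y hy a => ?_, fun t p hp => ?_⟩
  · have := (hnear y (hy.trans hrξ) a).1
    linarith
  · by_cases hpM : ∃ x : Fin d → ℝ, (∀ a, ξ / 2 ≤ x a ∧ x a ≤ Ξ + ξ / 2) ∧ -M ≤ F p x
    · exact hr t p ⟨hp, hpM⟩
    · left
      intro y hy
      push Not at hpM
      have h1 := hpM y (hnear y (hy.trans hrξ))
      have h2 : |h t s| ≤ ∑ t, |h t s| :=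
        Finset.single_le_sum (f := fun t => |h t s|) (fun t _ => abs_nonneg _) (Finset.mem_univ t)
      have h3 := neg_abs_le (h t s)
      linarith

/-- Absorption (module TrapB.lean). -/
theorem Trap.absorb (T : Trap 𝒱 h s₀ c f S) (hf : Continuous f) (hS : ∀ x, f x ∈ S)
    (x : ℝ → (Fin d → ℝ)) (hx : IsForwardSolution f x) (hpos : ∀ a, 0 < x 0 a)
    (hxc : x 0 - c ∈ S) : ∃ t₀, 0 ≤ t₀ ∧ x t₀ ∈ Kset 𝒱 h s₀ := by
  classical
  have hcl : ∀ t, 0 ≤ t → x t - c ∈ S := by
    intro t ht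
    have h1 := solution_mem_class f S hS x hx t ht
    have : x t - c = (x t - x 0) + (x 0 - c) := by abel
    rw [this]
    exact S.add_mem h1 hxc
  obtain ⟨s₁, hs₁, hx1⟩ := T.exh (x 0) hpos
  -- invariance from any time
  have hinv : ∀ s, s₀ ≤ s → ∀ t₁, 0 ≤ t₁ → x t₁ ∈ Kset 𝒱 h s → ∀ t, t₁ ≤ t → x t ∈ Kset 𝒱 h s := by
    intro s hs t₁ ht₁ hxt t ht
    have hsol : IsForwardSolution f (fun u => x (t₁ + u)) := by
      intro u hu
      have h1 := hx (t₁ + u) (by positivity)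
      have h2 : HasDerivWithinAt (fun v : ℝ => t₁ + v) 1 (Set.Ici 0) u :=
        ((hasDerivAt_id u).const_add t₁).hasDerivWithinAt
      have h3 : Set.MapsTo (fun v : ℝ => t₁ + v) (Set.Ici 0) (Set.Ici 0) := by
        intro v hv
        exact add_nonneg ht₁ hv
      have h4 := HasDerivWithinAt.scomp u h1 h2 h3
      rw [one_smul] at h4
      exact h4
    have h5 := T.invariant hS s hs f (fun _ _ => rfl) hS (fun u => x (t₁ + u)) hsol
      (by simpa using hxt) (by simpa using hcl t₁ ht₁) (t - t₁) (by linarith)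
    simpa using h5
  -- the infimum
  set A : Set ℝ := {s | s₀ ≤ s ∧ ∃ t, 0 ≤ t ∧ x t ∈ Kset 𝒱 h s} with hA
  have hAne : A.Nonempty := ⟨s₁, hs₁, 0, le_rfl, hx1⟩
  have hAbdd : BddBelow A := ⟨s₀, fun s hs => hs.1⟩
  set σ : ℝ := sInf A with hσ
  have hσ0 : s₀ ≤ σ := le_csInf hAne fun s hs => hs.1
  obtain ⟨sq, hsq_anti, hsq_lim, hsqA⟩ := exists_seq_tendsto_sInf hAne hAbdd
  choose hsq0 tq htq hxq using fun k => (hsqA k)
  -- limit point
  have hsqle : ∀ k, x (tq k) ∈ Kset 𝒱 h s₁ := by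
    intro k
    exact hinv s₁ hs₁ 0 le_rfl hx1 (tq k) (htq k)
  obtain ⟨z, hz1, φ, hφ, hφlim⟩ := (T.compact s₁ hs₁).tendsto_subseq hsqle
  have hsφ : Filter.Tendsto (fun k => sq (φ k)) Filter.atTop (nhds σ) :=
    hsq_lim.comp hφ.tendsto_atTop
  have hhφ : ∀ t, Filter.Tendsto (fun k => h t (sq (φ k))) Filter.atTop (nhds (h t σ)) := by
    intro t
    have h1 := T.cont t σ hσ0
    refine h1.tendsto.comp ?_
    rw [tendsto_nhdsWithin_iff]
    exact ⟨hsφ, Filter.Eventually.of_forall fun k => hsq0 (φ k)⟩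
  have hzσ : z ∈ Kset 𝒱 h σ := by
    refine ⟨hz1.1, fun t p hp => ?_⟩
    have h1 : Filter.Tendsto (fun k => F p (x (tq (φ k)))) Filter.atTop (nhds (F p z)) :=
      ((continuous_F p).tendsto z).comp hφlim
    exact le_of_tendsto_of_tendsto' h1 (hhφ t) fun k => (hxq (φ k)).2 t p hp
  have hzc : z - c ∈ S := by
    have h1 : Filter.Tendsto (fun k => x (tq (φ k)) - c) Filter.atTop (nhds (z - c)) :=
      hφlim.sub_const c
    exact (Submodule.closed_of_finiteDimensional S).mem_of_tendsto h1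
      (Filter.Eventually.of_forall fun k => hcl _ (htq _))
  obtain ⟨r, hr0, hrpos, hr⟩ := T.local hf σ hσ0 z hzσ hzc
  -- speed bound
  obtain ⟨V, hV⟩ : ∃ V : ℝ, ∀ y ∈ Metric.closedBall z r, ‖f y‖ ≤ V :=
    (isCompact_closedBall z r).exists_bound_of_continuousOn hf.continuousOn
  set V' : ℝ := max V 1 with hV'
  have hV'pos : 0 < V' := lt_of_lt_of_le one_pos (le_max_right _ _)
  set δ : ℝ := r / (4 * V') with hδ
  have hδpos : 0 < δ := by positivity
  -- `x` is continuous on `[0,∞)`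
  have hxcont : ContinuousOn x (Set.Ici 0) := fun t ht => (hx t ht).continuousWithinAt
  -- stay in the ball
  have hstay : ∀ t₁, 0 ≤ t₁ → dist (x t₁) z < r / 4 → ∀ u ∈ Set.Icc t₁ (t₁ + δ),
      dist (x u) z < r := by
    intro t₁ ht₁ hd u hu
    by_contra hcon
    push Not at hcon
    -- first time at which the distance is ≥ r
    set B : Set ℝ := {v | v ∈ Set.Icc t₁ u ∧ r ≤ dist (x v) z} with hB
    have hsub : Set.Icc t₁ u ⊆ Set.Ici 0 := fun v hv => ht₁.trans hv.1
    have hBclosed : IsClosed B := by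
      have h1 : ContinuousOn (fun v => dist (x v) z) (Set.Icc t₁ u) :=
        (continuous_id.dist continuous_const).comp_continuousOn (hxcont.mono hsub)
      have := h1.preimage_isClosed_of_isClosed isClosed_Icc (isClosed_Ici (a := r))
      exact this
    have hBne : B.Nonempty := ⟨u, ⟨hu.1, le_rfl⟩, hcon⟩
    have hBbdd : BddBelow B := ⟨t₁, fun v hv => hv.1.1⟩
    set w := sInf B with hw
    have hwB : w ∈ B := hBclosed.csInf_mem hBne hBbdd
    have hbefore : ∀ v ∈ Set.Ico t₁ w, dist (x v) z < r := by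
      intro v hv
      by_contra hc
      push Not at hc
      have : v ∈ B := ⟨⟨hv.1, hv.2.le.trans hwB.1.2⟩, hc⟩
      have := csInf_le hBbdd this
      linarith [hv.2]
    have hmv : ‖x w - x t₁‖ ≤ V' * (w - t₁) := by
      refine norm_image_sub_le_of_norm_deriv_right_le_segment (f' := fun v => f (x v))
        (hxcont.mono fun v hv => ht₁.trans hv.1) ?_ ?_ w ⟨hwB.1.1, le_rfl⟩
      · intro v hv
        have h1 := hx v (ht₁.trans hv.1)
        exact h1.mono (Set.Ici_subset_Ici.mpr (ht₁.trans hv.1))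
      · intro v hv
        exact (hV (x v) (Metric.mem_closedBall.mpr (hbefore v hv).le)).trans (le_max_left _ _)
    have h1 : r ≤ dist (x w) z := hwB.2
    have h2 : dist (x w) z ≤ dist (x w) (x t₁) + dist (x t₁) z := dist_triangle _ _ _
    rw [dist_eq_norm (x w) (x t₁)] at h2
    have h3 : V' * (w - t₁) ≤ V' * δ := by
      apply mul_le_mul_of_nonneg_left _ hV'pos.le
      linarith [hwB.1.2, hu.2]
    have h4 : V' * δ = r / 4 := by rw [hδ]; field_simp
    linarith
  -- the margin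
  set η : ℝ := min r (r * δ / 2) with hη
  have hηpos : 0 < η := lt_min hr0 (by positivity)
  -- choose the index
  have hev1 : ∀ᶠ k in Filter.atTop, dist (x (tq (φ k))) z < r / 4 :=
    Metric.tendsto_nhds.mp hφlim (r / 4) (by positivity)
  have hev2 : ∀ᶠ k in Filter.atTop, ∀ t, h t (sq (φ k)) < h t σ + r * δ / 2 := by
    rw [Filter.eventually_all]
    intro t
    exact (hhφ t).eventually (gt_mem_nhds (by linarith [mul_pos hr0 hδpos]))
  obtain ⟨k, hk1, hk2⟩ := (hev1.and hev2).exists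
  set t₁ := tq (φ k) with ht₁
  have ht₁0 : 0 ≤ t₁ := htq _
  have hball := hstay t₁ ht₁0 hk1
  -- all values are below at time `t₁ + δ`
  have hval : ∀ t, ∀ p ∈ 𝒱 t, F p (x (t₁ + δ)) ≤ h t σ - η := by
    intro t p hp
    rcases hr t p hp with h1 | h1
    · have h2 := h1 (x (t₁ + δ)) (hball _ ⟨by linarith, le_rfl⟩)
      linarith [min_le_left r (r * δ / 2)]
    · have hmono : F p (x (t₁ + δ)) - F p (x t₁) ≤ -r * (t₁ + δ - t₁) := by
        have hder : ∀ v ∈ Set.Icc t₁ (t₁ + δ), HasDerivWithinAt (fun v => F p (x v))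
            (∑ a, p.1 a * f (x v) a) (Set.Ici v) v := by
          intro v hv
          have h2 : HasDerivWithinAt x (f (x v)) (Set.Ici v) v :=
            (hx v (ht₁0.trans hv.1)).mono (Set.Ici_subset_Ici.mpr (ht₁0.trans hv.1))
          have h3 : ∀ a, HasDerivWithinAt (fun v => x v a) (f (x v) a) (Set.Ici v) v :=
            fun a => (hasDerivWithinAt_pi.mp h2) a
          have h4 : HasDerivWithinAt (fun v => ∑ a, p.1 a * x v a)
              (∑ a, p.1 a * f (x v) a) (Set.Ici v) v :=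
            HasDerivWithinAt.fun_sum fun a _ => (h3 a).const_mul (p.1 a)
          exact h4.add_const p.2
        have hc : ContinuousOn (fun v => F p (x v)) (Set.Icc t₁ (t₁ + δ)) :=
          (continuous_F p).comp_continuousOn (hxcont.mono fun v hv => ht₁0.trans hv.1)
        have h5 := image_le_of_deriv_right_le_deriv_boundary (f := fun v => F p (x v))
          (f' := fun v => ∑ a, p.1 a * f (x v) a) (a := t₁) (b := t₁ + δ) hc
          (fun v hv => hder v ⟨hv.1, hv.2.le⟩)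
          (B := fun v => F p (x t₁) + (-r) * (v - t₁)) (B' := fun _ => -r) (by simp)
          (by fun_prop) (fun v _ => by
            have : HasDerivAt (fun v : ℝ => F p (x t₁) + (-r) * (v - t₁)) (-r * 1) v :=
              (((hasDerivAt_id v).sub_const t₁).const_mul (-r)).const_add _
            rw [mul_one] at this
            exact this.hasDerivWithinAt)
          (fun v hv => h1 (x v) (hball v ⟨hv.1, hv.2.le⟩))
          (show t₁ + δ ∈ Set.Icc t₁ (t₁ + δ) from ⟨by linarith, le_rfl⟩)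
        have h6 : F p (x (t₁ + δ)) ≤ F p (x t₁) + (-r) * ((t₁ + δ) - t₁) := h5
        linarith
      have h2 : F p (x t₁) ≤ h t (sq (φ k)) := (hxq (φ k)).2 t p hp
      have h3 := hk2 t
      have h4 := min_le_right r (r * δ / 2)
      have h5 : -r * (t₁ + δ - t₁) = -(r * δ) := by ring
      rw [h5] at hmono
      linarith
  have hpos' : ∀ a, 0 < x (t₁ + δ) a :=
    hrpos _ (hball _ ⟨by linarith, le_rfl⟩)
  -- conclude
  have ht0 : 0 ≤ t₁ + δ := by positivity
  rcases hσ0.eq_or_lt with heq | hlt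
  · refine ⟨t₁ + δ, ht0, hpos', fun t p hp => ?_⟩
    have := hval t p hp
    rw [heq]
    linarith
  · exfalso
    have hleft : ∀ᶠ s in nhdsWithin σ (Set.Iio σ), ∀ t, h t σ - η < h t s := by
      rw [Filter.eventually_all]
      intro t
      have h1 : ContinuousWithinAt (h t) (Set.Ici s₀) σ := T.cont t σ hσ0
      have h2 : Filter.Tendsto (h t) (nhdsWithin σ (Set.Iio σ)) (nhds (h t σ)) := by
        have h3 : ContinuousAt (h t) σ := h1.continuousAt (Ici_mem_nhds hlt)
        exact h3.tendsto.mono_left nhdsWithin_le_nhds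
      exact h2.eventually (lt_mem_nhds (by linarith))
    have hIoo : ∀ᶠ s in nhdsWithin σ (Set.Iio σ), s₀ < s ∧ s < σ :=
      Ioo_mem_nhdsLT hlt
    obtain ⟨s', hs', hs'0, hs'σ⟩ := (hleft.and hIoo).exists
    have hmem : s' ∈ A := ⟨hs'0.le, t₁ + δ, ht0, hpos', fun t p hp => by
      linarith [hval t p hp, hs' t]⟩
    have := csInf_le hAbdd hmem
    linarith


end Trap
end Crest.Agent.Perm
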