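import Mathlib
import Crest.Prelude.Def_MassAction
import Crest.Agent.Perm.Defs
import Crest.Agent.Perm.TrapDefs
import Crest.Agent.Perm.Flow
import Crest.Agent.Perm.TrapA
import Crest.Agent.Perm.TrapB

/-! S0122, module TrapC: `Trap.main` (existence, uniqueness, absorption). -/
set_option autoImplicit false

namespace Crest.Agent.Perm
open Finset Crest.AnalysisR.MassAction

/-- clamp a vector coordinatewise to `[ξ, Ξ]` -/
private noncomputable def clamp {d : ℕ} (ξ Ξ : ℝ) (x : Fin d → ℝ) : Fin d → ℝ :=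
  fun a => max ξ (min (x a) Ξ)

private theorem clamp_lipschitz {d : ℕ} (ξ Ξ : ℝ) :
    LipschitzWith 1 (clamp ξ Ξ : (Fin d → ℝ) → (Fin d → ℝ)) := by
  refine LipschitzWith.of_dist_le_mul (fun x y => ?_)
  rw [NNReal.coe_one, one_mul, dist_pi_le_iff dist_nonneg]
  intro a
  have h1 : LipschitzWith 1 (fun u : ℝ => max ξ (min u Ξ)) :=
    (LipschitzWith.id.min_const Ξ).const_max ξ
  have h2 := h1.dist_le_mul (x a) (y a)
  rw [NNReal.coe_one, one_mul] at h2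
  exact h2.trans (dist_le_pi_dist x y a)

private theorem clamp_eq {d : ℕ} {ξ Ξ : ℝ} {x : Fin d → ℝ} (hx : ∀ a, ξ ≤ x a ∧ x a ≤ Ξ) :
    clamp ξ Ξ x = x := by
  funext a
  simp only [clamp]
  rw [min_eq_left (hx a).2, max_eq_right (hx a).1]

private theorem clamp_mem {d : ℕ} (ξ Ξ : ℝ) (x : Fin d → ℝ) :
    clamp ξ Ξ x ∈ Set.Icc (fun _ : Fin d => ξ) (fun _ => max ξ Ξ) := by
  constructor
  · intro a; exact le_max_left _ _
  · intro a; exact max_le_max le_rfl (min_le_right _ _)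

/-- shift of a forward solution -/
private theorem forward_shift {d : ℕ} {f : (Fin d → ℝ) → (Fin d → ℝ)} {x : ℝ → (Fin d → ℝ)}
    (hx : IsForwardSolution f x) {t₀ : ℝ} (ht₀ : 0 ≤ t₀) :
    IsForwardSolution f (fun t => x (t + t₀)) := by
  intro t ht
  have h1 := hx (t + t₀) (by linarith)
  have h2 : HasDerivWithinAt (fun t : ℝ => t + t₀) 1 (Set.Ici 0) t :=
    ((hasDerivAt_id t).add_const t₀).hasDerivWithinAt
  have h3 : Set.MapsTo (fun t : ℝ => t + t₀) (Set.Ici 0) (Set.Ici 0) := by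
    intro u hu
    simp only [Set.mem_Ici] at hu ⊢
    linarith
  have h4 := HasDerivWithinAt.scomp t h1 h2 h3
  rw [one_smul] at h4
  exact h4

section Trap
variable {d : ℕ} {τ : Type} [Fintype τ] {𝒱 : τ → Set ((Fin d → ℝ) × ℝ)} {h : τ → ℝ → ℝ}
  {s₀ : ℝ} {c : Fin d → ℝ} {f : (Fin d → ℝ) → (Fin d → ℝ)} {S : Submodule ℝ (Fin d → ℝ)}

/-- existence of solutions starting in `Kset s` -/
private theorem Trap.exists_sol (T : Trap 𝒱 h s₀ c f S) (hf : ContDiff ℝ 1 f)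
    (hS : ∀ x, f x ∈ S) (s : ℝ) (hs : s₀ ≤ s) (x₀ : Fin d → ℝ) (hx₀ : x₀ ∈ Kset 𝒱 h s)
    (hxc : x₀ - c ∈ S) :
    ∃ x : ℝ → (Fin d → ℝ), IsForwardSolution f x ∧ x 0 = x₀ := by
  obtain ⟨ξ, Ξ, hξ, hbox⟩ := T.bdd s hs
  set Q : Set (Fin d → ℝ) := Set.Icc (fun _ : Fin d => ξ) (fun _ => max ξ Ξ) with hQ
  have hQc : IsCompact Q := isCompact_Icc
  obtain ⟨K, hK⟩ := LocallyLipschitzOn.exists_lipschitzOnWith_of_compact hQc
    (hf.locallyLipschitz.locallyLipschitzOn (s := Q))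
  obtain ⟨M, hM⟩ := hQc.exists_bound_of_continuousOn hf.continuous.continuousOn
  set f' : (Fin d → ℝ) → (Fin d → ℝ) := fun x => f (clamp ξ Ξ x) with hf'def
  have hf'L : LipschitzWith K f' := by
    refine LipschitzWith.of_dist_le_mul (fun x y => ?_)
    have h1 := hK.dist_le_mul (clamp ξ Ξ x) (clamp_mem ξ Ξ x) (clamp ξ Ξ y) (clamp_mem ξ Ξ y)
    have h2 := (clamp_lipschitz (d := d) ξ Ξ).dist_le_mul x y
    rw [NNReal.coe_one, one_mul] at h2
    exact h1.trans (mul_le_mul_of_nonneg_left h2 K.2)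
  obtain ⟨x, hx, hx0⟩ := exists_global_solution f' K hf'L M
    (fun x => hM _ (clamp_mem ξ Ξ x)) x₀
  have hff : ∀ x ∈ Kset 𝒱 h s, f' x = f x := fun x hx => by
    simp only [hf'def, clamp_eq (hbox x hx)]
  have hinv := T.invariant hS s hs f' hff (fun x => hS _) x hx (by rw [hx0]; exact hx₀)
    (by rw [hx0]; exact hxc)
  refine ⟨x, fun t ht => ?_, hx0⟩
  have h1 := hx t ht
  rwa [hff _ (hinv t ht)] at h1

/-- Final ODE statement (module TrapC.lean). -/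
theorem Trap.main (T : Trap 𝒱 h s₀ c f S) (hf : ContDiff ℝ 1 f) (hS : ∀ x, f x ∈ S)
    (hc : ∀ a, 0 < c a) :
    ∃ K : Set (Fin d → ℝ), K ⊆ {x | (∀ i, 0 < x i) ∧ x - c ∈ S} ∧ K.Nonempty ∧
      IsCompact K ∧ Convex ℝ K ∧
      (∀ x : ℝ → (Fin d → ℝ), IsForwardSolution f x → x 0 ∈ K →
        ∀ t : ℝ, 0 ≤ t → x t ∈ K) ∧
      (∀ x₀ : Fin d → ℝ, x₀ ∈ {x : Fin d → ℝ | (∀ i, 0 < x i) ∧ x - c ∈ S} →
        (∃ x : ℝ → (Fin d → ℝ), IsForwardSolution f x ∧ x 0 = x₀) ∧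
        (∀ x x' : ℝ → (Fin d → ℝ), IsForwardSolution f x →
          IsForwardSolution f x' → x 0 = x₀ → x' 0 = x₀ →
          ∀ t : ℝ, 0 ≤ t → x t = x' t) ∧
        (∀ x : ℝ → (Fin d → ℝ), IsForwardSolution f x → x 0 = x₀ →
          (∀ t : ℝ, 0 ≤ t → ∀ i, 0 < x t i) ∧
          ∃ T : ℝ, 0 ≤ T ∧ ∀ t : ℝ, T ≤ t → x t ∈ K)) := by
  -- class is preserved
  have hclass : ∀ x : ℝ → (Fin d → ℝ), IsForwardSolution f x → x 0 - c ∈ S →
      ∀ t, 0 ≤ t → x t - c ∈ S := by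
    intro x hx hx0 t ht
    have h1 := solution_mem_class f S hS x hx t ht
    have h2 : x t - c = (x t - x 0) + (x 0 - c) := by abel
    rw [h2]
    exact S.add_mem h1 hx0
  have hinv : ∀ s, s₀ ≤ s → ∀ x : ℝ → (Fin d → ℝ), IsForwardSolution f x →
      x 0 ∈ Kset 𝒱 h s → x 0 - c ∈ S → ∀ t, 0 ≤ t → x t ∈ Kset 𝒱 h s := by
    intro s hs x hx hx0 hxc
    exact T.invariant hS s hs f (fun _ _ => rfl) hS x hx hx0 hxc
  -- eventually in `K`
  have habs : ∀ x : ℝ → (Fin d → ℝ), IsForwardSolution f x → (∀ a, 0 < x 0 a) →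
      x 0 - c ∈ S → ∃ t₀, 0 ≤ t₀ ∧ ∀ t, t₀ ≤ t → x t ∈ Kset 𝒱 h s₀ ∧ x t - c ∈ S := by
    intro x hx hpos hxc
    obtain ⟨t₀, ht₀, hxt⟩ := T.absorb hf.continuous hS x hx hpos hxc
    refine ⟨t₀, ht₀, fun t ht => ⟨?_, hclass x hx hxc t (ht₀.trans ht)⟩⟩
    have h1 := hinv s₀ le_rfl (fun u => x (u + t₀)) (forward_shift hx ht₀)
      (by simpa using hxt) (by simpa using hclass x hx hxc t₀ ht₀) (t - t₀) (by linarith)
    simpa using h1
  have hclosed : IsClosed {x : Fin d → ℝ | x - c ∈ S} := by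
    have h1 : IsClosed (S : Set (Fin d → ℝ)) := Submodule.closed_of_finiteDimensional S
    exact h1.preimage (by fun_prop)
  refine ⟨Kset 𝒱 h s₀ ∩ {x | x - c ∈ S}, ?_, ?_, ?_, ?_, ?_, ?_⟩
  · rintro x ⟨hx, hxc⟩
    exact ⟨hx.1, hxc⟩
  · have hcc : c - c ∈ S := by rw [sub_self]; exact S.zero_mem
    obtain ⟨s, hs, hcs⟩ := T.exh c hc
    obtain ⟨x, hx, hx0⟩ := T.exists_sol hf hS s hs c hcs hcc
    obtain ⟨t₀, ht₀, h1⟩ := habs x hx (by rw [hx0]; exact hc) (by rw [hx0]; exact hcc)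
    exact ⟨x t₀, h1 t₀ le_rfl⟩
  · exact (T.compact s₀ le_rfl).inter_right hclosed
  · refine (Kset_convex s₀).inter ?_
    intro x hx y hy a b ha hb hab
    simp only [Set.mem_ofPred_eq] at hx hy ⊢
    have h1 : a • x + b • y - c = a • (x - c) + b • (y - c) := by
      have : c = a • c + b • c := by rw [← add_smul, hab, one_smul]
      rw [smul_sub, smul_sub]
      nth_rewrite 1 [this]
      abel
    rw [h1]
    exact S.add_mem (S.smul_mem a hx) (S.smul_mem b hy)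
  · rintro x hx ⟨hx0, hxc⟩ t ht
    exact ⟨hinv s₀ le_rfl x hx hx0 hxc t ht, hclass x hx hxc t ht⟩
  · rintro x₀ ⟨hpos, hxc⟩
    obtain ⟨s, hs, hx₀s⟩ := T.exh x₀ hpos
    refine ⟨T.exists_sol hf hS s hs x₀ hx₀s hxc, ?_, ?_⟩
    · intro x x' hx hx' hx0 hx'0
      obtain ⟨ξ, Ξ, hξ, hbox⟩ := T.bdd s hs
      set Q : Set (Fin d → ℝ) := Set.Icc (fun _ : Fin d => ξ) (fun _ => Ξ) with hQ
      have hQc : IsCompact Q := isCompact_Icc
      obtain ⟨K, hK⟩ := LocallyLipschitzOn.exists_lipschitzOnWith_of_compact hQc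
        (hf.locallyLipschitz.locallyLipschitzOn (s := Q))
      have hsub : ∀ y ∈ Kset 𝒱 h s, y ∈ Q := fun y hy =>
        ⟨fun a => (hbox y hy a).1, fun a => (hbox y hy a).2⟩
      refine unique_solution f Q K hK x x' hx hx' (fun t ht => hsub _ ?_)
        (fun t ht => hsub _ ?_) (by rw [hx0, hx'0])
      · exact hinv s hs x hx (by rw [hx0]; exact hx₀s) (by rw [hx0]; exact hxc) t ht
      · exact hinv s hs x' hx' (by rw [hx'0]; exact hx₀s) (by rw [hx'0]; exact hxc) t ht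
    · intro x hx hx0
      refine ⟨fun t ht i => ?_, ?_⟩
      · exact (hinv s hs x hx (by rw [hx0]; exact hx₀s) (by rw [hx0]; exact hxc) t ht).1 i
      · obtain ⟨t₀, ht₀, h1⟩ := habs x hx (by rw [hx0]; exact hpos) (by rw [hx0]; exact hxc)
        exact ⟨t₀, ht₀, fun t ht => h1 t ht⟩
end Trap

end Crest.Agent.Perm
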